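import Vale.Agent.P162.Thorp

open Vale.Agent.P162

theorem Vale.Agent.Results.P162.Mixing.result :
    ∃ c C : ℝ, 0 < c ∧ 0 < C ∧ ∀ d : ℕ, 1 ≤ d →
      tv (2 ^ d) (tmix (2 ^ d)) ≤ 1 / 4 ∧
      c * Real.log ((2 : ℝ) ^ d) ≤ tmix (2 ^ d) ∧ tmix (2 ^ d) ≤ C * Real.log ((2 : ℝ) ^ d) := by
  obtain ⟨j, hj⟩ := upper
  refine ⟨1 / 3, 2 * 2 ^ j, by norm_num, by positivity, fun d hd => ?_⟩
  obtain ⟨d, rfl⟩ : ∃ d', d = d' + 1 := ⟨d - 1, by omega⟩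
  have h1 : tv (2 ^ (d + 1)) (tmix (2 ^ (d + 1))) ≤ 1 / 4 :=
    Nat.sInf_mem (s := {t | tv (2 ^ (d + 1)) t ≤ 1 / 4}) ⟨_, hj d⟩
  have h2 : tmix (2 ^ (d + 1)) ≤ (d + 1) * 2 ^ j := Nat.sInf_le (hj d)
  have h3 := lower d _ h1
  have l2 := Real.log_two_gt_d9
  have l3 := Real.log_two_lt_d9
  have h4 : (tmix (2 ^ (d + 1)) : ℝ) ≤ (d + 1) * 2 ^ j := by exact_mod_cast h2
  have h5 : (d + 1 : ℝ) ≤ 3 * tmix (2 ^ (d + 1)) := by exact_mod_cast h3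
  have h6 : (0 : ℝ) ≤ d := Nat.cast_nonneg d
  rw [Real.log_pow]
  push_cast
  refine ⟨h1, by nlinarith, h4.trans ?_⟩
  nlinarith [mul_nonneg (show (0 : ℝ) ≤ (d + 1) * 2 ^ j by positivity)
    (show 0 ≤ 2 * Real.log 2 - 1 by linarith)]
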